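import Vale.Agent.P073.MM.Smooth2
import Vale.Agent.P073.MM.H307.MollLp

/-!
# P073, block MM: the smoothing theorem, unconditional
-/

namespace Vale.Agent.P073.MM

/-- row A2 without hypothesis -/
theorem specSmooth : SpecSmooth := smooth H307.mollLp

end Vale.Agent.P073.MM
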