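import Vale.Agent.P073.H655.Off

/-!
# P073: locally monotone homeomorphisms (in the sense of Minty), every exponent: the rows
-/

namespace Vale.Agent.P073.MM

open MeasureTheory Set Filter Topology Metric Vale.Agent.P073.St Vale.Agent.P073.AB
open scoped ContDiff ENNReal

/-- `f` is locally monotone on `U`: near each point `(f x - f y) · (x - y) ≥ 0`. -/
def LocMonotone (U : Set V) (f : V → V) : Prop :=
  ∀ a ∈ U, ∃ r : ℝ, 0 < r ∧ ∀ x y, euc (x - a) < r → euc (y - a) < r →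
    0 ≤ ∑ i, (x i - y i) * (f x i - f y i)

/-- the weak derivative has a nonnegative symmetric part -/
def PSD (U : Set V) (F : V → Mat) : Prop :=
  ∀ᵐ x ∂(volume : Measure V), x ∈ U → ∀ h : V, 0 ≤ ∑ i, h i * cl (F x) h i

/-- Row B. -/
def SpecPSD : Prop := ∀ (p : ℝ) (U : Set V) (f : V → V) (F : V → Mat), 1 ≤ p → IsOpen U →
  ContinuousOn f U → St.IsSobolev p U f F → LocMonotone U f → PSD U F

/-- Row A1. -/
def SpecMollLp : Prop := ∀ (p : ℝ) (G : V → V →L[ℝ] V), 1 ≤ p → AEStronglyMeasurable G volume →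
  ∫⁻ x, ENNReal.ofReal (‖G x‖ ^ p) ≠ ⊤ → HasCompactSupport G → ∀ ε : ℝ, 0 < ε →
  ∃ δ : ℝ, 0 < δ ∧ ∀ φ : ContDiffBump (0 : V), φ.rOut ≤ δ →
    ∫⁻ x, ENNReal.ofReal (‖(∫ y, φ.normed volume (x - y) • G y) - G x‖ ^ p) ≤ ENNReal.ofReal ε

/-- Row A2: smoothing (Meyers-Serrin) keeping the sign. -/
def SpecSmooth : Prop := ∀ (p : ℝ) (U : Set V) (f : V → V) (F : V → Mat) (e : V → ℝ) (ε : ℝ),
  1 ≤ p → IsOpen U → Bornology.IsBounded U → ContinuousOn f U → St.IsSobolev p U f F → PSD U F →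
  ContinuousOn e U →
  (∀ x ∈ U, 0 < e x) → 0 < ε →
  ∃ g : V → V, ContDiffOn ℝ ∞ g U ∧ (∀ x ∈ U, ‖g x - f x‖ ≤ e x) ∧
    ∫⁻ x in U, ENNReal.ofReal (‖fderiv ℝ g x - cl (F x)‖ ^ p) ≤ ENNReal.ofReal ε ∧
    ∀ x ∈ U, ∀ h : V, -(e x) * ‖h‖ ^ 2 ≤ ∑ i, h i * fderiv ℝ g x h i

/-- Row C: smooth nonsingular maps close to a homeomorphism (open sets, not connected). -/
def SpecNear : Prop := ∀ (U W : Set V) (f g : V → V), IsOpen U → IsOpen W → Wᶜ.Nonempty →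
  St.IsHomeo U W f → ContDiffOn ℝ ∞ g U → (∀ x ∈ U, ∀ v, fderiv ℝ g x v = 0 → v = 0) →
  (∀ x ∈ U, ‖g x - f x‖ ≤ (1 / 4) * min (infDist (f x) Wᶜ) 1) → St.IsDiffeo U W g

/-- Row D1: the perturbation `P = g + κ(g) x`. -/
def SpecPert : Prop := ∀ (p : ℝ) (U W : Set V) (f : V → V) (F : V → Mat), 1 ≤ p → IsOpen U →
  Bornology.IsBounded U → IsOpen W → Wᶜ.Nonempty → St.IsHomeo U W f → St.IsSobolev p U f F →
  LocMonotone U f → ∀ σ : V → ℝ, ContinuousOn σ U → (∀ x ∈ U, 0 < σ x) → ∀ ε : ℝ, 0 < ε →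
    ∃ P : V → V, St.IsDiffeo U W P ∧ (∀ x ∈ U, ‖P x - f x‖ ≤ σ x) ∧
      AB.err p U f F P ≤ ENNReal.ofReal ε

end Vale.Agent.P073.MM
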