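import Vale.Agent.P073.MM.Smooth

/-!
# P073, block MM: row A2
-/

namespace Vale.Agent.P073.MM

open MeasureTheory Set Filter Topology Metric Vale.Agent.P073.St Vale.Agent.P073.AB
open scoped ContDiff ENNReal

/-- the pointwise estimate of the energy -/
theorem pt_energy {p κ : ℝ} (hp : 0 < p) (hκ : 0 ≤ κ) (X : ℕ → V →L[ℝ] V) (Y Z : V →L[ℝ] V)
    (M : ℕ) (hZ : Z = ∑ n ∈ Finset.range M, X n + Y) (hY : ‖Y‖ ≤ κ) :
    ENNReal.ofReal (‖Z‖ ^ p) ≤ ENNReal.ofReal (2 ^ p) *
      (∑' n, ENNReal.ofReal ((2 ^ (n + 1)) ^ p) * ENNReal.ofReal (‖X n‖ ^ p) +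
        ENNReal.ofReal (κ ^ p)) := by
  have h1 : ‖Z‖ ≤ ∑ n ∈ Finset.range M, ‖X n‖ + κ := by
    rw [hZ]
    exact (norm_add_le _ _).trans (add_le_add (norm_sum_le _ _) hY)
  have h2 : ‖Z‖ ^ p ≤ 2 ^ p * ((∑ n ∈ Finset.range M, ‖X n‖) ^ p + κ ^ p) :=
    (Real.rpow_le_rpow (norm_nonneg _) h1 hp.le).trans
      (add_pow_le hp.le (Finset.sum_nonneg fun n _ => norm_nonneg _) hκ)
  have h3 := sum_pow_le hp (fun n => ‖X n‖) (fun n => norm_nonneg _) M
  have h4 : ‖Z‖ ^ p ≤ 2 ^ p * (∑ n ∈ Finset.range M, (2 ^ (n + 1) * ‖X n‖) ^ p + κ ^ p) :=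
    h2.trans (by gcongr)
  refine (ENNReal.ofReal_le_ofReal h4).trans ?_
  rw [ENNReal.ofReal_mul (by positivity), ENNReal.ofReal_add
    (Finset.sum_nonneg fun n _ => by positivity) (by positivity),
    ENNReal.ofReal_sum_of_nonneg fun n _ => by positivity]
  gcongr
  refine le_trans (le_of_eq ?_) (ENNReal.sum_le_tsum (Finset.range M))
  refine Finset.sum_congr rfl fun n _ => ?_
  rw [Real.mul_rpow (by positivity) (norm_nonneg _), ENNReal.ofReal_mul (by positivity)]

theorem tsum_geo (κ : ℝ) (hκ : 0 ≤ κ) :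
    ∑' n : ℕ, ENNReal.ofReal (κ * (1 / 2) ^ (n + 1)) ≤ ENNReal.ofReal κ := by
  have h1 : Summable fun n : ℕ => κ * (1 / 2 : ℝ) ^ (n + 1) := by
    have h2 : Summable fun n : ℕ => (1 / 2 : ℝ) ^ n := summable_geometric_two
    exact ((summable_nat_add_iff 1).2 h2).mul_left κ
  rw [← ENNReal.ofReal_tsum_of_nonneg (fun n => by positivity) h1]
  apply ENNReal.ofReal_le_ofReal
  refine h1.tsum_le_of_sum_range_le fun M => ?_
  rw [← Finset.mul_sum]
  calc κ * ∑ n ∈ Finset.range M, (1 / 2 : ℝ) ^ (n + 1) ≤ κ * 1 :=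
        mul_le_mul_of_nonneg_left (geo_half M) hκ
    _ = κ := mul_one κ

theorem exists_lv {t : ℝ} (ht : 0 < t) : ∃ N, lv N < t := by
  obtain ⟨n, hn⟩ := exists_nat_one_div_lt ht
  exact ⟨n, hn⟩

/-- **Row A2** -/
theorem smooth (hA1 : SpecMollLp) : SpecSmooth := by
  intro p U f F e ε hp hU hUb hf hF hpsd he he0 hε
  have hp0 : 0 < p := by linarith
  have hne : Uᶜ.Nonempty := by
    rw [nonempty_compl]
    rintro rfl
    exact NormedSpace.unbounded_univ ℝ V hUb
  have hv : volume U ≠ ⊤ := hUb.measure_lt_top.ne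
  obtain ⟨c, c1, c2, c3, c4, c5, c6, c7⟩ := exists_part hU hUb hne
  obtain ⟨κ, hκ, hκε⟩ := exists_kap hp0 hε hv
  choose m m0 mκ me using exists_m hU hUb hne he he0 hκ
  have hst := fun n => stage hA1 hp hU hUb hf hF hpsd (c1 n) (c2 n) (c3 n) (c4 n) (Q := Qn U n)
    (r := lv (n + 1) - lv (n + 2)) (sub_pos.2 (lv_succ (n + 1)))
    (qn_of hne c5 c6 n) (η := (1 / 2 : ℝ) ^ (n + 1) * (m n / 3))
    (ε := κ * (1 / 2) ^ (n + 1) / (2 ^ (n + 1)) ^ p) (by have := m0 n; positivity) (by positivity)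
  choose T A B t1 t2 t3 t4 t5 t6 t7 t8 using hst
  have cd : Continuous fun x : V => infDist x Uᶜ := continuous_infDist_pt _
  have hWo : ∀ N, IsOpen {x : V | lv N < infDist x Uᶜ} := fun N => isOpen_lt continuous_const cd
  have hpos : ∀ x ∈ U, 0 < infDist x Uᶜ := fun x hx =>
    (hU.isClosed_compl.notMem_iff_infDist_pos hne).1 (by simpa using hx)
  have hex : ∀ x ∈ U, ∃ N, lv N < infDist x Uᶜ := fun x hx => exists_lv (hpos x hx)
  have hlvU : ∀ {N x}, lv N < infDist x Uᶜ → x ∈ U := fun {N x} h =>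
    sub_of_pos hne hU ((lv_pos N).trans h)
  -- the sum
  have hg : ∀ N, ∀ x, lv N < infDist x Uᶜ → ∑' n, T n x = ∑ n ∈ Finset.range (N + 2), T n x := by
    intro N x hx
    refine tsum_eq_sum fun n hn => ?_
    exact (t6 n x (not_qn hx (by simpa using hn))).1
  have hev : ∀ N x, lv N < infDist x Uᶜ →
      (fun y => ∑' n, T n y) =ᶠ[𝓝 x] fun y => ∑ n ∈ Finset.range (N + 2), T n y := by
    intro N x hx
    filter_upwards [(hWo N).mem_nhds hx] with y hy using hg N y hy
  have hsm : ∀ N, ContDiff ℝ ∞ fun y => ∑ n ∈ Finset.range (N + 2), T n y := fun N =>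
    ContDiff.sum fun n _ => t1 n
  have hfd : ∀ N x, lv N < infDist x Uᶜ → fderiv ℝ (fun y => ∑' n, T n y) x =
      ∑ n ∈ Finset.range (N + 2), (A n x + B n x) := by
    intro N x hx
    rw [(hev N x hx).fderiv_eq, fderiv_fun_sum fun n _ => ((t1 n).differentiable (by simp)) x]
    exact Finset.sum_congr rfl fun n _ => t2 n x
  have hc1 : ∀ N x, lv N < infDist x Uᶜ → ∑ n ∈ Finset.range (N + 2), c n x = 1 := by
    intro N x hx
    exact c7 N x hx.le (N + 1) (by omega)
  have hcd : ∀ N x, lv N < infDist x Uᶜ → ∑ n ∈ Finset.range (N + 2), fderiv ℝ (c n) x = 0 := by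
    intro N x hx
    rw [← fderiv_fun_sum fun n _ => ((c1 n).differentiable (by simp)) x]
    have h1 : (fun y => ∑ n ∈ Finset.range (N + 2), c n y) =ᶠ[𝓝 x] fun _ => (1 : ℝ) := by
      filter_upwards [(hWo N).mem_nhds hx] with y hy using hc1 N y hy
    rw [h1.fderiv_eq]
    simp
  -- the estimates
  have b3 : ∀ x ∈ U, ∀ n, ‖T n x - c n x • f x‖ ≤ (1 / 2 : ℝ) ^ (n + 1) * e x := by
    intro x hx n
    have h0 := he0 x hx
    by_cases hq : Qn U n x
    · refine (t3 n x).trans ?_
      have := me n x hq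
      have := m0 n
      gcongr
      linarith
    · obtain ⟨e1, -, -, e2, -⟩ := t6 n x hq
      rw [e1, e2, zero_smul, sub_zero, norm_zero]
      positivity
  have b4 : ∀ x ∈ U, ∀ n, ‖B n x - (fderiv ℝ (c n) x).smulRight (f x)‖ ≤
      (1 / 2 : ℝ) ^ (n + 1) * (min (e x) κ / 3) := by
    intro x hx n
    have h0 : 0 < min (e x) κ := lt_min (he0 x hx) hκ
    by_cases hq : Qn U n x
    · refine (t4 n x).trans ?_
      have h1 : m n ≤ min (e x) κ := le_min (me n x hq) (mκ n)
      have := m0 n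
      gcongr
    · obtain ⟨-, -, e1, -, e2⟩ := t6 n x hq
      have e3 : (0 : V →L[ℝ] ℝ).smulRight (f x) = 0 := by ext v : 1; simp
      rw [e1, e2, e3, sub_zero, norm_zero]
      positivity
  have hB : ∀ N x, lv N < infDist x Uᶜ →
      ‖∑ n ∈ Finset.range (N + 2), B n x‖ ≤ min (e x) κ / 3 := by
    intro N x hx
    have hxU := hlvU hx
    have h0 : 0 < min (e x) κ := lt_min (he0 x hxU) hκ
    have h1 : ∑ n ∈ Finset.range (N + 2), (fderiv ℝ (c n) x).smulRight (f x) = 0 := by
      ext v : 1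
      rw [ContinuousLinearMap.sum_apply]
      simp only [ContinuousLinearMap.smulRight_apply]
      rw [← Finset.sum_smul, ← ContinuousLinearMap.sum_apply, hcd N x hx]
      simp
    have h2 : ∑ n ∈ Finset.range (N + 2), B n x =
        ∑ n ∈ Finset.range (N + 2), (B n x - (fderiv ℝ (c n) x).smulRight (f x)) := by
      rw [Finset.sum_sub_distrib, h1, sub_zero]
    rw [h2]
    exact norm_sum_le_geo _ (by positivity) _ (b4 x hxU)
  refine ⟨fun x => ∑' n, T n x, ?_, ?_, ?_, ?_⟩
  · intro x hx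
    obtain ⟨N, hN⟩ := hex x hx
    exact (((hsm N).contDiffAt).congr_of_eventuallyEq (hev N x hN)).contDiffWithinAt
  · intro x hx
    obtain ⟨N, hN⟩ := hex x hx
    have h1 : f x = ∑ n ∈ Finset.range (N + 2), c n x • f x := by
      rw [← Finset.sum_smul, hc1 N x hN, one_smul]
    show ‖∑' n, T n x - f x‖ ≤ e x
    rw [hg N x hN]
    conv_lhs => rw [h1]
    rw [← Finset.sum_sub_distrib]
    exact norm_sum_le_geo _ (he0 x hx).le _ (b3 x hx)
  · -- the energy
    have hAm : ∀ n, AEMeasurable (fun x => ENNReal.ofReal ((2 ^ (n + 1)) ^ p) *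
        ENNReal.ofReal (‖A n x - c n x • cl (F x)‖ ^ p)) (volume.restrict U) := by
      intro n
      have h1 : AEStronglyMeasurable (fun x => A n x - c n x • cl (F x)) (volume.restrict U) :=
        (t8 n).aestronglyMeasurable.sub
          ((c1 n).continuous.aestronglyMeasurable.smul (PK.IsSob.aesm hF))
      exact (h1.norm.aemeasurable.pow_const p).ennreal_ofReal.const_mul _
    calc ∫⁻ x in U, ENNReal.ofReal (‖fderiv ℝ (fun y => ∑' n, T n y) x - cl (F x)‖ ^ p)
        ≤ ∫⁻ x in U, ENNReal.ofReal (2 ^ p) * (∑' n, ENNReal.ofReal ((2 ^ (n + 1)) ^ p) *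
            ENNReal.ofReal (‖A n x - c n x • cl (F x)‖ ^ p) + ENNReal.ofReal (κ ^ p)) := by
          refine setLIntegral_mono' hU.measurableSet fun x hx => ?_
          obtain ⟨N, hN⟩ := hex x hx
          have h0 : 0 < min (e x) κ := lt_min (he0 x hx) hκ
          refine pt_energy hp0 hκ.le (fun n => A n x - c n x • cl (F x))
            (∑ n ∈ Finset.range (N + 2), B n x) _ (N + 2) ?_ ?_
          · have h1 : cl (F x) = ∑ n ∈ Finset.range (N + 2), c n x • cl (F x) := by
              rw [← Finset.sum_smul, hc1 N x hN, one_smul]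
            rw [hfd N x hN]
            conv_lhs => rw [h1]
            rw [Finset.sum_add_distrib, Finset.sum_sub_distrib]
            abel
          · have h1 := hB N x hN
            have h2 : min (e x) κ ≤ κ := min_le_right _ _
            linarith
      _ = ENNReal.ofReal (2 ^ p) * ((∫⁻ x in U, ∑' n, ENNReal.ofReal ((2 ^ (n + 1)) ^ p) *
            ENNReal.ofReal (‖A n x - c n x • cl (F x)‖ ^ p)) +
            ENNReal.ofReal (κ ^ p) * volume U) := by
          rw [lintegral_const_mul' _ _ ENNReal.ofReal_ne_top,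
            lintegral_add_right' _ aemeasurable_const, setLIntegral_const]
      _ ≤ ENNReal.ofReal (2 ^ p) * (ENNReal.ofReal κ + ENNReal.ofReal (κ ^ p) * volume U) := by
          gcongr
          rw [lintegral_tsum hAm]
          refine le_trans (ENNReal.tsum_le_tsum fun n => ?_) (tsum_geo κ hκ.le)
          rw [lintegral_const_mul' _ _ ENNReal.ofReal_ne_top]
          calc ENNReal.ofReal ((2 ^ (n + 1)) ^ p) *
                ∫⁻ x in U, ENNReal.ofReal (‖A n x - c n x • cl (F x)‖ ^ p)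
              ≤ ENNReal.ofReal ((2 ^ (n + 1)) ^ p) *
                ENNReal.ofReal (κ * (1 / 2) ^ (n + 1) / (2 ^ (n + 1)) ^ p) := by
                gcongr
                exact (setLIntegral_le_lintegral _ _).trans (t5 n)
            _ = ENNReal.ofReal (κ * (1 / 2) ^ (n + 1)) := by
                rw [← ENNReal.ofReal_mul (by positivity)]
                congr 1
                have : ((2 : ℝ) ^ (n + 1)) ^ p ≠ 0 := by positivity
                field_simp
      _ ≤ ENNReal.ofReal ε := hκε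
  · intro x hx h
    obtain ⟨N, hN⟩ := hex x hx
    have h0 : 0 < min (e x) κ := lt_min (he0 x hx) hκ
    rw [hfd N x hN, Finset.sum_add_distrib]
    have e1 : ∑ i, h i * ((∑ n ∈ Finset.range (N + 2), A n x +
        ∑ n ∈ Finset.range (N + 2), B n x) h) i =
        ∑ n ∈ Finset.range (N + 2), ∑ i, h i * A n x h i +
          ∑ i, h i * ((∑ n ∈ Finset.range (N + 2), B n x) h) i := by
      have e2 : ∀ i : Fin 3, h i * ((∑ n ∈ Finset.range (N + 2), A n x +
          ∑ n ∈ Finset.range (N + 2), B n x) h) i = (∑ n ∈ Finset.range (N + 2), h i * A n x h i) +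
          h i * ((∑ n ∈ Finset.range (N + 2), B n x) h) i := by
        intro i
        rw [← Finset.mul_sum, ← mul_add]
        congr 1
        show (∑ n ∈ Finset.range (N + 2), A n x) h i +
          (∑ n ∈ Finset.range (N + 2), B n x) h i = _
        congr 1
        rw [ContinuousLinearMap.sum_apply, Finset.sum_apply]
      rw [Finset.sum_congr rfl fun i _ => e2 i, Finset.sum_add_distrib]
      congr 1
      exact Finset.sum_comm
    rw [e1]
    have h1 : 0 ≤ ∑ n ∈ Finset.range (N + 2), ∑ i, h i * A n x h i :=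
      Finset.sum_nonneg fun n _ => t7 n x h
    have h2 := quad_bound (∑ n ∈ Finset.range (N + 2), B n x) h
    have h3 := hB N x hN
    have h4 : min (e x) κ ≤ e x := min_le_left _ _
    have h5 : 3 * ‖∑ n ∈ Finset.range (N + 2), B n x‖ * ‖h‖ ^ 2 ≤ e x * ‖h‖ ^ 2 :=
      mul_le_mul_of_nonneg_right (by linarith) (by positivity)
    have h6 := (abs_le.1 h2).1
    linarith

end Vale.Agent.P073.MM
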