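import Vale.Agent.P073.MM.Rows

/-!
# P073, block MM: a partition of unity along an exhaustion
-/

namespace Vale.Agent.P073.MM

open MeasureTheory Set Filter Topology Metric Vale.Agent.P073.St Vale.Agent.P073.AB
open scoped ContDiff ENNReal

/-- the levels -/
noncomputable def lv (n : ℕ) : ℝ := 1 / ((n : ℝ) + 1)

theorem lv_pos (n : ℕ) : 0 < lv n := by unfold lv; positivity

theorem lv_succ (n : ℕ) : lv (n + 1) < lv n := by
  unfold lv
  apply one_div_lt_one_div_of_lt (by positivity)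
  push_cast
  linarith

theorem lv_anti {m n : ℕ} (h : m ≤ n) : lv n ≤ lv m := by
  unfold lv
  apply one_div_le_one_div_of_le (by positivity)
  have : (m : ℝ) ≤ n := by exact_mod_cast h
  linarith

theorem lv_diff (m : ℕ) : lv (m + 3) - lv (m + 4) ≤ lv m - lv (m + 1) := by
  unfold lv
  push_cast
  have h1 : (1 : ℝ) / (m + 3 + 1) - 1 / (m + 4 + 1) = 1 / ((m + 4) * (m + 5)) := by
    field_simp; ring
  have h2 : (1 : ℝ) / (m + 1) - 1 / (m + 1 + 1) = 1 / ((m + 1) * (m + 2)) := by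
    field_simp; ring
  rw [h1, h2]
  apply one_div_le_one_div_of_le (by positivity)
  nlinarith [(Nat.cast_nonneg m : (0 : ℝ) ≤ m)]

section

variable {U : Set V}

theorem exists_chi (U : Set V) (n : ℕ) : ∃ χ : V → ℝ, ContDiff ℝ ∞ χ ∧ (∀ x, 0 ≤ χ x ∧ χ x ≤ 1) ∧
    (∀ x, lv n ≤ infDist x Uᶜ → χ x = 1) ∧ (∀ x, infDist x Uᶜ ≤ lv (n + 1) → χ x = 0) := by
  have cd : Continuous fun x : V => infDist x Uᶜ := continuous_infDist_pt _
  have oA : IsOpen {x : V | lv (n + 1) < infDist x Uᶜ} := isOpen_lt continuous_const cd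
  have oB : IsOpen {x : V | infDist x Uᶜ < lv n} := isOpen_lt cd continuous_const
  obtain ⟨hA, sA, cA, rA⟩ := oA.exists_contDiff_support_eq (n := ⊤)
  obtain ⟨hB, sB, cB, rB⟩ := oB.exists_contDiff_support_eq (n := ⊤)
  have a0 : ∀ x, 0 ≤ hA x := fun x => (rA (mem_range_self x)).1
  have b0 : ∀ x, 0 ≤ hB x := fun x => (rB (mem_range_self x)).1
  have aiff : ∀ x, hA x ≠ 0 ↔ lv (n + 1) < infDist x Uᶜ := fun x => by
    rw [← Function.mem_support, sA]; rfl
  have biff : ∀ x, hB x ≠ 0 ↔ infDist x Uᶜ < lv n := fun x => by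
    rw [← Function.mem_support, sB]; rfl
  have hpos : ∀ x, 0 < hA x + hB x := by
    intro x
    rcases lt_or_ge (lv (n + 1)) (infDist x Uᶜ) with h | h
    · have := lt_of_le_of_ne (a0 x) (Ne.symm ((aiff x).2 h))
      linarith [b0 x]
    · have := lt_of_le_of_ne (b0 x) (Ne.symm ((biff x).2 (h.trans_lt (lv_succ n))))
      linarith [a0 x]
  refine ⟨fun x => hA x / (hA x + hB x), ?_, fun x => ⟨?_, ?_⟩, fun x hx => ?_, fun x hx => ?_⟩
  · exact cA.div (cA.add cB) fun x => (hpos x).ne'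
  · exact div_nonneg (a0 x) (hpos x).le
  · rw [div_le_one (hpos x)]; linarith [b0 x]
  · have h1 : hB x = 0 := by
      by_contra h
      exact absurd ((biff x).1 h) (not_lt.2 hx)
    have h2 := hpos x
    rw [h1, add_zero] at h2
    show hA x / (hA x + hB x) = 1
    rw [h1, add_zero, div_self h2.ne']
  · have h1 : hA x = 0 := by
      by_contra h
      exact absurd ((aiff x).1 h) (not_lt.2 hx)
    show hA x / (hA x + hB x) = 0
    rw [h1, zero_div]

theorem sub_of_pos (hne : Uᶜ.Nonempty) (hU : IsOpen U) {x : V} (h : 0 < infDist x Uᶜ) : x ∈ U := by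
  by_contra hx
  have : infDist x Uᶜ = 0 := infDist_zero_of_mem hx
  linarith

/-- the partition -/
theorem exists_part (hU : IsOpen U) (hUb : Bornology.IsBounded U) (hne : Uᶜ.Nonempty) :
    ∃ c : ℕ → V → ℝ, (∀ n, ContDiff ℝ ∞ (c n)) ∧ (∀ n x, 0 ≤ c n x) ∧
      (∀ n, HasCompactSupport (c n)) ∧ (∀ n, tsupport (c n) ⊆ U) ∧
      (∀ n, ∀ x ∈ tsupport (c n), lv (n + 1) ≤ infDist x Uᶜ) ∧
      (∀ n, ∀ x ∈ tsupport (c (n + 1)), infDist x Uᶜ ≤ lv n) ∧
      ∀ N x, lv N ≤ infDist x Uᶜ → ∀ M, N ≤ M → ∑ n ∈ Finset.range (M + 1), c n x = 1 := by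
  have cd : Continuous fun x : V => infDist x Uᶜ := continuous_infDist_pt _
  choose χ h1 h2 h3 h4 using exists_chi U
  let c : ℕ → V → ℝ := fun n => Nat.rec (χ 0) (fun m _ x => χ (m + 1) x - χ m x) n
  have c0 : c 0 = χ 0 := rfl
  have cs : ∀ n, c (n + 1) = fun x => χ (n + 1) x - χ n x := fun n => rfl
  have lo : ∀ n x, c n x ≠ 0 → lv (n + 1) ≤ infDist x Uᶜ := by
    intro n x hx
    by_contra h
    rw [not_le] at h
    apply hx
    cases n with
    | zero => exact h4 0 x h.le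
    | succ m =>
      rw [cs]
      show χ (m + 1) x - χ m x = 0
      rw [h4 (m + 1) x h.le, h4 m x (h.le.trans (lv_succ (m + 1)).le), sub_zero]
  have hi : ∀ n x, c (n + 1) x ≠ 0 → infDist x Uᶜ ≤ lv n := by
    intro n x hx
    by_contra h
    rw [not_le] at h
    apply hx
    rw [cs]
    show χ (n + 1) x - χ n x = 0
    rw [h3 n x h.le, h3 (n + 1) x ((lv_succ n).le.trans h.le), sub_self]
  have clo : ∀ n, ∀ x ∈ tsupport (c n), lv (n + 1) ≤ infDist x Uᶜ := by
    intro n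
    have : tsupport (c n) ⊆ {x | lv (n + 1) ≤ infDist x Uᶜ} :=
      closure_minimal (fun x hx => lo n x hx) (isClosed_le continuous_const cd)
    exact fun x hx => this hx
  have cU : ∀ n, tsupport (c n) ⊆ U := fun n x hx =>
    sub_of_pos hne hU ((lv_pos _).trans_le (clo n x hx))
  refine ⟨c, fun n => ?_, fun n x => ?_, fun n => ?_, cU, clo, fun n => ?_, fun N x hx M hM => ?_⟩
  · cases n with
    | zero => exact h1 0
    | succ m => rw [cs]; exact (h1 (m + 1)).sub (h1 m)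
  · cases n with
    | zero => exact (h2 0 x).1
    | succ m =>
      rw [cs]
      show 0 ≤ χ (m + 1) x - χ m x
      rcases le_or_gt (lv (m + 1)) (infDist x Uᶜ) with h | h
      · rw [h3 (m + 1) x h]; linarith [(h2 m x).2]
      · rw [h4 m x h.le]; linarith [(h2 (m + 1) x).1]
  · exact (hUb.subset (cU n)).isCompact_closure.of_isClosed_subset (isClosed_tsupport _)
      subset_closure
  · have : tsupport (c (n + 1)) ⊆ {x | infDist x Uᶜ ≤ lv n} :=
      closure_minimal (fun x hx => hi n x hx) (isClosed_le cd continuous_const)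
    exact fun x hx => this hx
  · have h5 : ∀ M, ∑ n ∈ Finset.range (M + 1), c n x = χ M x := by
      intro M
      induction M with
      | zero => simp [c0]
      | succ m ih =>
        rw [Finset.sum_range_succ, ih, cs]
        show χ m x + (χ (m + 1) x - χ m x) = _
        ring
    rw [h5, h3 M x ((lv_anti hM).trans hx)]

/-- the range of influence of the `n`-th term -/
def Qn (U : Set V) (n : ℕ) (x : V) : Prop :=
  lv (n + 2) < infDist x Uᶜ ∧ ∀ m, n = m + 2 → infDist x Uᶜ < lv m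

theorem qn_of (hne : Uᶜ.Nonempty) {c : ℕ → V → ℝ}
    (clo : ∀ n, ∀ x ∈ tsupport (c n), lv (n + 1) ≤ infDist x Uᶜ)
    (chi : ∀ n, ∀ x ∈ tsupport (c (n + 1)), infDist x Uᶜ ≤ lv n) (n : ℕ) (x y : V)
    (h : ‖x - y‖ < lv (n + 1) - lv (n + 2)) (hy : y ∈ tsupport (c n)) : Qn U n x := by
  have h1 : infDist y Uᶜ ≤ infDist x Uᶜ + ‖x - y‖ := by
    have := infDist_le_infDist_add_dist (s := Uᶜ) (x := y) (y := x)
    rwa [dist_comm, dist_eq_norm] at this
  have h2 : infDist x Uᶜ ≤ infDist y Uᶜ + ‖x - y‖ := by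
    have := infDist_le_infDist_add_dist (s := Uᶜ) (x := x) (y := y)
    rwa [dist_eq_norm] at this
  refine ⟨by linarith [clo n y hy], ?_⟩
  rintro m rfl
  have h3 := chi (m + 1) y hy
  have h4 := lv_diff m
  have e : m + 2 + 1 = m + 3 := rfl
  have e' : m + 2 + 2 = m + 4 := rfl
  rw [e, e'] at h
  linarith

theorem not_qn {N n : ℕ} {x : V} (hx : lv N < infDist x Uᶜ) (hn : N + 2 ≤ n) : ¬ Qn U n x := by
  rintro ⟨-, h⟩
  obtain ⟨m, rfl⟩ : ∃ m, n = m + 2 := ⟨n - 2, by omega⟩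
  have h1 := h m rfl
  have h2 := lv_anti (show N ≤ m by omega)
  linarith

end

end Vale.Agent.P073.MM
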