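import Vale.Agent.P073.MM.Stage
import Vale.Agent.P073.MM.Part

/-!
# P073, block MM: the smoothing
-/

namespace Vale.Agent.P073.MM

open MeasureTheory Set Filter Topology Metric Vale.Agent.P073.St Vale.Agent.P073.AB
open scoped ContDiff ENNReal

theorem add_pow_le {p a b : ℝ} (hp : 0 ≤ p) (ha : 0 ≤ a) (hb : 0 ≤ b) :
    (a + b) ^ p ≤ 2 ^ p * (a ^ p + b ^ p) := by
  have h1 : a + b ≤ 2 * max a b := by
    linarith [le_max_left a b, le_max_right a b]
  have h2 : (a + b) ^ p ≤ (2 * max a b) ^ p := Real.rpow_le_rpow (by positivity) h1 hp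
  have h3 : (2 * max a b) ^ p = 2 ^ p * (max a b) ^ p :=
    Real.mul_rpow (by norm_num) (le_max_of_le_left ha)
  have h4 : (max a b) ^ p ≤ a ^ p + b ^ p := by
    have ha' := Real.rpow_nonneg ha p
    have hb' := Real.rpow_nonneg hb p
    rcases max_choice a b with h | h <;> rw [h] <;> linarith
  rw [h3] at h2
  exact h2.trans (mul_le_mul_of_nonneg_left h4 (by positivity))

theorem geo_half (M : ℕ) : ∑ n ∈ Finset.range M, (1 / 2 : ℝ) ^ (n + 1) ≤ 1 := by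
  have : ∀ M : ℕ, ∑ n ∈ Finset.range M, (1 / 2 : ℝ) ^ (n + 1) = 1 - (1 / 2) ^ M := by
    intro M
    induction M with
    | zero => simp
    | succ k ih => rw [Finset.sum_range_succ, ih]; ring
  rw [this]
  have : (0 : ℝ) ≤ (1 / 2) ^ M := by positivity
  linarith

theorem sum_pow_le {p : ℝ} (hp : 0 < p) (b : ℕ → ℝ) (hb : ∀ n, 0 ≤ b n) (M : ℕ) :
    (∑ n ∈ Finset.range M, b n) ^ p ≤ ∑ n ∈ Finset.range M, (2 ^ (n + 1) * b n) ^ p := by
  set s := ∑ n ∈ Finset.range M, b n with hs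
  have hs0 : 0 ≤ s := Finset.sum_nonneg fun n _ => hb n
  have hnn : ∀ n ∈ Finset.range M, 0 ≤ (2 ^ (n + 1) * b n) ^ p := fun n _ =>
    Real.rpow_nonneg (mul_nonneg (by positivity) (hb n)) p
  rcases hs0.eq_or_lt with h0 | h0
  · rw [← h0, Real.zero_rpow hp.ne']
    exact Finset.sum_nonneg hnn
  · obtain ⟨n, hn, h1⟩ : ∃ n ∈ Finset.range M, s ≤ 2 ^ (n + 1) * b n := by
      by_contra hcon
      push Not at hcon
      have hne : (Finset.range M).Nonempty := by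
        rw [Finset.nonempty_iff_ne_empty]
        intro h
        rw [hs, h, Finset.sum_empty] at h0
        exact lt_irrefl _ h0
      have h2 : s < ∑ n ∈ Finset.range M, (1 / 2 : ℝ) ^ (n + 1) * s := by
        conv_lhs => rw [hs]
        refine Finset.sum_lt_sum_of_nonempty hne fun n hn => ?_
        have h3 := hcon n hn
        have h4 : b n = (1 / 2 : ℝ) ^ (n + 1) * (2 ^ (n + 1) * b n) := by
          rw [← mul_assoc, ← mul_pow]; norm_num
        rw [h4]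
        exact mul_lt_mul_of_pos_left h3 (by positivity)
      rw [← Finset.sum_mul] at h2
      have h5 := geo_half M
      nlinarith
    calc s ^ p ≤ (2 ^ (n + 1) * b n) ^ p := Real.rpow_le_rpow hs0 h1 hp.le
      _ ≤ _ := Finset.single_le_sum hnn hn

theorem exists_kap {p ε : ℝ} (hp : 0 < p) (hε : 0 < ε) {v : ℝ≥0∞} (hv : v ≠ ⊤) :
    ∃ κ : ℝ, 0 < κ ∧ ENNReal.ofReal (2 ^ p) * (ENNReal.ofReal κ + ENNReal.ofReal (κ ^ p) * v) ≤
      ENNReal.ofReal ε := by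
  have t0 : Tendsto (fun n : ℕ => 1 / ((n : ℝ) + 1)) atTop (𝓝 0) :=
    tendsto_one_div_add_atTop_nhds_zero_nat
  have t1 : Tendsto (fun n : ℕ => ENNReal.ofReal (1 / ((n : ℝ) + 1))) atTop (𝓝 0) := by
    simpa using ENNReal.tendsto_ofReal t0
  have t2 : Tendsto (fun n : ℕ => ENNReal.ofReal ((1 / ((n : ℝ) + 1)) ^ p)) atTop (𝓝 0) := by
    have h2 : Tendsto (fun n : ℕ => (1 / ((n : ℝ) + 1)) ^ p) atTop (𝓝 (0 ^ p)) :=
      t0.rpow_const (Or.inr hp.le)
    rw [Real.zero_rpow hp.ne'] at h2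
    simpa using ENNReal.tendsto_ofReal h2
  have t3 := ENNReal.Tendsto.mul_const (b := v) t2 (Or.inr hv)
  rw [zero_mul] at t3
  have t5 := t1.add t3
  rw [add_zero] at t5
  have t6 := ENNReal.Tendsto.const_mul (a := ENNReal.ofReal (2 ^ p)) t5
    (Or.inr ENNReal.ofReal_ne_top)
  rw [mul_zero] at t6
  obtain ⟨n, hn⟩ := (t6.eventually (gt_mem_nhds (ENNReal.ofReal_pos.2 hε))).exists
  exact ⟨1 / ((n : ℝ) + 1), by positivity, hn.le⟩

theorem exists_m {U : Set V} (hU : IsOpen U) (hUb : Bornology.IsBounded U) (hne : Uᶜ.Nonempty)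
    {e : V → ℝ} (he : ContinuousOn e U) (he0 : ∀ x ∈ U, 0 < e x) {κ : ℝ} (hκ : 0 < κ) (n : ℕ) :
    ∃ m : ℝ, 0 < m ∧ m ≤ κ ∧ ∀ x, Qn U n x → m ≤ e x := by
  have cd : Continuous fun x : V => infDist x Uᶜ := continuous_infDist_pt _
  have hsub : {x : V | lv (n + 2) ≤ infDist x Uᶜ} ⊆ U := fun x hx =>
    sub_of_pos hne hU ((lv_pos _).trans_le hx)
  have hK : IsCompact {x : V | lv (n + 2) ≤ infDist x Uᶜ} :=
    (hUb.subset hsub).isCompact_closure.of_isClosed_subset (isClosed_le continuous_const cd)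
      subset_closure
  rcases ({x : V | lv (n + 2) ≤ infDist x Uᶜ}).eq_empty_or_nonempty with h | h
  · exact ⟨κ, hκ, le_rfl, fun x hx => absurd (show x ∈ {x : V | lv (n + 2) ≤ infDist x Uᶜ} from
      hx.1.le) (by rw [h]; exact notMem_empty _)⟩
  · obtain ⟨z, hz, hmin⟩ := hK.exists_isMinOn h (he.mono hsub)
    exact ⟨min (e z) κ, lt_min (he0 z (hsub hz)) hκ, min_le_right _ _, fun x hx =>
      (min_le_left _ _).trans (hmin hx.1.le)⟩

theorem norm_sum_le_geo {E : Type*} [SeminormedAddCommGroup E] (b : ℕ → E) {s : ℝ} (hs : 0 ≤ s)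
    (M : ℕ) (h : ∀ n, ‖b n‖ ≤ (1 / 2 : ℝ) ^ (n + 1) * s) : ‖∑ n ∈ Finset.range M, b n‖ ≤ s := by
  calc ‖∑ n ∈ Finset.range M, b n‖ ≤ ∑ n ∈ Finset.range M, ‖b n‖ := norm_sum_le _ _
    _ ≤ ∑ n ∈ Finset.range M, (1 / 2 : ℝ) ^ (n + 1) * s := Finset.sum_le_sum fun n _ => h n
    _ = (∑ n ∈ Finset.range M, (1 / 2 : ℝ) ^ (n + 1)) * s := by rw [Finset.sum_mul]
    _ ≤ 1 * s := mul_le_mul_of_nonneg_right (geo_half M) hs
    _ = s := one_mul s

theorem quad_bound (L : V →L[ℝ] V) (h : V) : |∑ i, h i * L h i| ≤ 3 * ‖L‖ * ‖h‖ ^ 2 := by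
  calc |∑ i, h i * L h i| ≤ ∑ i, |h i * L h i| := Finset.abs_sum_le_sum_abs _ _
    _ ≤ ∑ _i : Fin 3, ‖L‖ * ‖h‖ ^ 2 := by
        refine Finset.sum_le_sum fun i _ => ?_
        rw [abs_mul]
        have h1 : |h i| ≤ ‖h‖ := norm_le_pi_norm h i
        have h2 : |L h i| ≤ ‖L h‖ := norm_le_pi_norm (L h) i
        have h3 : ‖L h‖ ≤ ‖L‖ * ‖h‖ := L.le_opNorm h
        calc |h i| * |L h i| ≤ ‖h‖ * (‖L‖ * ‖h‖) :=
              mul_le_mul h1 (h2.trans h3) (abs_nonneg _) (norm_nonneg _)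
          _ = _ := by ring
    _ = _ := by simp; ring

end Vale.Agent.P073.MM
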